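import Mathlib

/-!
# P315: edit distance and the equality-comparison decision tree model

Definitions only. Strings are lists; the unit-cost edit distance is the least number of
single-symbol insertions, deletions and substitutions turning one string into the other.
-/

namespace Vale.Agent.Lib.P315

/-- One edit operation on a string: insertion of a symbol, deletion of a symbol,
or substitution of one symbol by another, at an arbitrary place. -/
inductive EditStep {α : Type*} : List α → List α → Prop
  | ins (u v : List α) (a : α) : EditStep (u ++ v) (u ++ a :: v)
  | del (u v : List α) (a : α) : EditStep (u ++ a :: v) (u ++ v)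
  | sub (u v : List α) (a b : α) : EditStep (u ++ a :: v) (u ++ b :: v)

/-- `EditIn k x y`: the string `y` is obtained from `x` by a sequence of exactly `k`
edit operations. -/
inductive EditIn {α : Type*} : ℕ → List α → List α → Prop
  | refl (x : List α) : EditIn 0 x x
  | step {k : ℕ} {x w z : List α} : EditIn k x w → EditStep w z → EditIn (k + 1) x z

/-- Unit-cost edit distance: the least number of edit operations turning `x` into `y`. -/
noncomputable def editDist {α : Type*} (x y : List α) : ℕ :=
  sInf {k | EditIn k x y}

/-- A deterministic algorithm in the equality-comparison model, for two input strings
`x` and `y` of length `n`, is a decision tree. An inner node `cmp p q yes no` asks whether the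
symbols at two input positions are equal and continues in `yes` or in `no` accordingly;
a position `Sum.inl i` is the `i`-th symbol of `x`, and `Sum.inr j` is the `j`-th symbol of `y`.
A leaf `out d` outputs the real number `d`. The tree never sees the symbols themselves. -/
inductive EqTree (n : ℕ) : Type
  | out (d : ℝ) : EqTree n
  | cmp (p q : Fin n ⊕ Fin n) (yes no : EqTree n) : EqTree n

/-- The output of the decision tree on the input `(x, y)`. -/
noncomputable def EqTree.run {n : ℕ} {α : Type*} [DecidableEq α] :
    EqTree n → (Fin n → α) → (Fin n → α) → ℝ
  | EqTree.out d, _, _ => d
  | EqTree.cmp p q yes no, x, y =>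
      if Sum.elim x y p = Sum.elim x y q then yes.run x y else no.run x y

/-- The number of equality comparisons the decision tree makes on the input `(x, y)`. -/
def EqTree.queries {n : ℕ} {α : Type*} [DecidableEq α] :
    EqTree n → (Fin n → α) → (Fin n → α) → ℕ
  | EqTree.out _, _, _ => 0
  | EqTree.cmp p q yes no, x, y =>
      1 + (if Sum.elim x y p = Sum.elim x y q then yes.queries x y else no.queries x y)

end Vale.Agent.Lib.P315
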