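import Vale.Agent.Lib.P315.Defs

/-!
# P315: a quadratic lower bound in the equality-comparison model

Lemmas and the main argument (an adversary argument along the diagonals).
-/

namespace Vale.Agent.Lib.P315

open Finset

section EditBasics

variable {α : Type*}

theorem EditIn.trans {k l : ℕ} {x w z : List α} (h1 : EditIn k x w) (h2 : EditIn l w z) :
    EditIn (k + l) x z := by
  induction h2 with
  | refl => simpa using h1
  | step _ hs ih => exact EditIn.step (ih h1) hs

theorem EditStep.append_left (p : List α) {x y : List α} (h : EditStep x y) :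
    EditStep (p ++ x) (p ++ y) := by
  cases h with
  | ins u v a =>
    have := EditStep.ins (p ++ u) v a
    simpa [List.append_assoc] using this
  | del u v a =>
    have := EditStep.del (p ++ u) v a
    simpa [List.append_assoc] using this
  | sub u v a b =>
    have := EditStep.sub (p ++ u) v a b
    simpa [List.append_assoc] using this

theorem EditStep.append_right (q : List α) {x y : List α} (h : EditStep x y) :
    EditStep (x ++ q) (y ++ q) := by
  cases h with
  | ins u v a =>
    have := EditStep.ins u (v ++ q) a
    simpa [List.append_assoc] using this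
  | del u v a =>
    have := EditStep.del u (v ++ q) a
    simpa [List.append_assoc] using this
  | sub u v a b =>
    have := EditStep.sub u (v ++ q) a b
    simpa [List.append_assoc] using this

theorem EditIn.append_left (p : List α) {k : ℕ} {x y : List α} (h : EditIn k x y) :
    EditIn k (p ++ x) (p ++ y) := by
  induction h with
  | refl => exact EditIn.refl _
  | step _ hs ih => exact EditIn.step ih (hs.append_left p)

theorem EditIn.append_right (q : List α) {k : ℕ} {x y : List α} (h : EditIn k x y) :
    EditIn k (x ++ q) (y ++ q) := by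
  induction h with
  | refl => exact EditIn.refl _
  | step _ hs ih => exact EditIn.step ih (hs.append_right q)

theorem EditIn.append {k l : ℕ} {x y x' y' : List α} (h1 : EditIn k x y) (h2 : EditIn l x' y') :
    EditIn (k + l) (x ++ x') (y ++ y') :=
  (h1.append_right x').trans (h2.append_left y)

theorem editIn_nil_left (p : List α) : EditIn p.length [] p := by
  induction p with
  | nil => exact EditIn.refl _
  | cons a p ih =>
    have h : EditStep p (a :: p) := by simpa using EditStep.ins [] p a
    simpa using EditIn.step ih h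

theorem editIn_nil_right (q : List α) : EditIn q.length q [] := by
  induction q with
  | nil => exact EditIn.refl _
  | cons a q ih =>
    have h : EditStep (a :: q) q := by simpa using EditStep.del [] q a
    have h1 : EditIn 1 (a :: q) q := by simpa using EditIn.step (EditIn.refl (a :: q)) h
    have := h1.trans ih
    simpa [Nat.add_comm] using this

/-- Equal-length strings: substitute at every place where they differ. -/
theorem editIn_ofFn [DecidableEq α] : ∀ (m : ℕ) (u v : Fin m → α),
    EditIn (∑ i, if u i = v i then 0 else 1) (List.ofFn u) (List.ofFn v) := by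
  intro m
  induction m with
  | zero => intro u v; simpa using EditIn.refl ([] : List α)
  | succ m ih =>
    intro u v
    rw [Fin.sum_univ_succ, List.ofFn_succ, List.ofFn_succ]
    have hrest := ih (fun i => u i.succ) (fun i => v i.succ)
    have hhead : EditIn (if u 0 = v 0 then 0 else 1) [u 0] [v 0] := by
      by_cases h : u 0 = v 0
      · simp only [h, if_true]; exact EditIn.refl _
      · simp only [h, if_false]
        have hs : EditStep [u 0] [v 0] := by simpa using EditStep.sub [] [] (u 0) (v 0)
        simpa using EditIn.step (EditIn.refl [u 0]) hs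
    simpa using hhead.append hrest

/-- Each edit operation destroys at most one symbol of a common subsequence. -/
theorem EditIn.exists_common_sublist {k : ℕ} {x y : List α} (h : EditIn k x y) :
    ∃ c : List α, c.Sublist x ∧ c.Sublist y ∧ x.length ≤ c.length + k := by
  induction h with
  | refl x => exact ⟨x, List.Sublist.refl _, List.Sublist.refl _, by omega⟩
  | step _ hs ih =>
    obtain ⟨c, hcx, hcw, hlen⟩ := ih
    have key : ∀ (u v : List α) (a : α), c.Sublist (u ++ a :: v) →
        ∃ c' : List α, c'.Sublist c ∧ c'.Sublist (u ++ v) ∧ c.length ≤ c'.length + 1 := by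
      intro u v a hc
      obtain ⟨c1, c2, rfl, h1, h2⟩ := List.sublist_append_iff.mp hc
      rcases List.sublist_cons_iff.mp h2 with h2 | ⟨r, rfl, hr⟩
      · exact ⟨c1 ++ c2, List.Sublist.refl _, h1.append h2, by omega⟩
      · refine ⟨c1 ++ r, ?_, h1.append hr, by simp only [List.length_append, List.length_cons]; omega⟩
        exact (List.Sublist.refl c1).append (List.sublist_cons_self a r)
    cases hs with
    | ins u v a =>
      refine ⟨c, hcx, hcw.trans ?_, by omega⟩
      exact (List.Sublist.refl u).append (List.sublist_cons_self a v)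
    | del u v a =>
      obtain ⟨c', hc'c, hc', hl⟩ := key u v a hcw
      exact ⟨c', hc'c.trans hcx, hc', by omega⟩
    | sub u v a b =>
      obtain ⟨c', hc'c, hc', hl⟩ := key u v a hcw
      refine ⟨c', hc'c.trans hcx, hc'.trans ?_, by omega⟩
      exact (List.Sublist.refl u).append (List.sublist_cons_self b v)

theorem editDist_le_of_editIn {k : ℕ} {x y : List α} (h : EditIn k x y) : editDist x y ≤ k :=
  Nat.sInf_le h

theorem editIn_exists (x y : List α) : ∃ k, EditIn k x y :=
  ⟨_, (editIn_nil_right x).trans (editIn_nil_left y)⟩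

theorem le_editDist_of_forall {m : ℕ} {x y : List α} (h : ∀ k, EditIn k x y → m ≤ k) :
    m ≤ editDist x y :=
  le_csInf (editIn_exists x y) h

/-- Strings without a common symbol are at edit distance at least the length of the first. -/
theorem length_le_editDist_of_disjoint {x y : List α} (h : ∀ a ∈ x, a ∉ y) :
    x.length ≤ editDist x y := by
  apply le_editDist_of_forall
  intro k hk
  obtain ⟨c, hcx, hcy, hlen⟩ := hk.exists_common_sublist
  have hc : c = [] := by
    cases c with
    | nil => rfl
    | cons a c =>
      exact absurd (hcy.subset (List.mem_cons_self)) (h a (hcx.subset (List.mem_cons_self)))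
  subst hc
  simpa using hlen

end EditBasics

section Tree

variable {n : ℕ}

/-- The list of comparisons made on the input `(x, y)`. -/
def EqTree.path {α : Type*} [DecidableEq α] :
    EqTree n → (Fin n → α) → (Fin n → α) → List ((Fin n ⊕ Fin n) × (Fin n ⊕ Fin n))
  | EqTree.out _, _, _ => []
  | EqTree.cmp p q yes no, x, y =>
      (p, q) :: (if Sum.elim x y p = Sum.elim x y q then yes.path x y else no.path x y)

theorem EqTree.queries_eq_length_path {α : Type*} [DecidableEq α] (T : EqTree n)
    (x y : Fin n → α) : T.queries x y = (T.path x y).length := by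
  induction T with
  | out d => rfl
  | cmp p q yes no ihy ihn =>
    simp only [EqTree.queries, EqTree.path, List.length_cons]
    split_ifs <;> omega

/-- Two inputs that answer all comparisons on the path of the first in the same way
get the same output. -/
theorem EqTree.run_eq_of_agree {α β : Type*} [DecidableEq α] [DecidableEq β] (T : EqTree n)
    (x y : Fin n → α) (x' y' : Fin n → β)
    (h : ∀ pq ∈ T.path x y, (Sum.elim x y pq.1 = Sum.elim x y pq.2 ↔
      Sum.elim x' y' pq.1 = Sum.elim x' y' pq.2)) :
    T.run x' y' = T.run x y := by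
  induction T with
  | out d => rfl
  | cmp p q yes no ihy ihn =>
    have hpq := h (p, q) (by simp [EqTree.path])
    simp only [EqTree.run]
    by_cases hc : Sum.elim x y p = Sum.elim x y q
    · have hc' := hpq.mp hc
      simp only [hc, hc', if_true]
      apply ihy
      intro pq hmem
      apply h
      simp [EqTree.path, hc, hmem]
    · have hc' : ¬ (Sum.elim x' y' p = Sum.elim x' y' q) := fun h' => hc (hpq.mpr h')
      simp only [hc, hc', if_false]
      apply ihn
      intro pq hmem
      apply h
      simp [EqTree.path, hc, hmem]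

/-- The base input: `x` uses the symbols `0, ..., n-1`. -/
def x0 (n : ℕ) : Fin n → Fin (2 * n) := fun i => ⟨i.val, by have := i.isLt; omega⟩

/-- The base input: `y` uses the symbols `n, ..., 2n-1`. -/
def y0 (n : ℕ) : Fin n → Fin (2 * n) := fun j => ⟨n + j.val, by have := j.isLt; omega⟩

/-- The pairs `(i, j)` such that `x i` is compared with `y j` somewhere in the list `P`. -/
noncomputable def Qset (P : List ((Fin n ⊕ Fin n) × (Fin n ⊕ Fin n))) : Finset (Fin n × Fin n) :=
  open Classical in
  Finset.univ.filter
    (fun ij => (Sum.inl ij.1, Sum.inr ij.2) ∈ P ∨ (Sum.inr ij.2, Sum.inl ij.1) ∈ P)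

/-- The modified second string: on the diagonal `j = i + s`, wherever the pair `(i, j)` is not
in `Q`, the symbol `y j` is replaced by `x i`. -/
def ymod (n s : ℕ) (Q : Finset (Fin n × Fin n)) : Fin n → Fin (2 * n) := fun j =>
  if s ≤ j.val ∧ ((⟨j.val - s, by have := j.isLt; omega⟩ : Fin n), j) ∉ Q then
    x0 n ⟨j.val - s, by have := j.isLt; omega⟩
  else y0 n j

theorem x0_val (i : Fin n) : (x0 n i).val = i.val := rfl

theorem y0_val (j : Fin n) : (y0 n j).val = n + j.val := rfl

theorem ymod_eq (s : ℕ) (Q : Finset (Fin n × Fin n)) (i j : Fin n) (hij : j.val = i.val + s)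
    (hQ : (i, j) ∉ Q) : ymod n s Q j = x0 n i := by
  have hi : (⟨j.val - s, by have := j.isLt; omega⟩ : Fin n) = i := Fin.ext (by simp; omega)
  unfold ymod
  rw [if_pos ⟨by omega, by rw [hi]; exact hQ⟩, hi]

theorem ymod_val (s : ℕ) (Q : Finset (Fin n × Fin n)) (j : Fin n) :
    ((ymod n s Q j).val = j.val - s ∧ s ≤ j.val ∧
      ((⟨j.val - s, by have := j.isLt; omega⟩ : Fin n), j) ∉ Q) ∨
    (ymod n s Q j).val = n + j.val := by
  unfold ymod
  split_ifs with h
  · exact Or.inl ⟨rfl, h.1, h.2⟩
  · exact Or.inr rfl

theorem agree_base (p q : Fin n ⊕ Fin n) :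
    Sum.elim (x0 n) (y0 n) p = Sum.elim (x0 n) (y0 n) q ↔ p = q := by
  constructor
  · intro h
    rcases p with i | j <;> rcases q with i' | j'
    · have := congrArg Fin.val h
      simp only [Sum.elim_inl, x0_val] at this
      rw [Fin.ext this]
    · have := congrArg Fin.val h
      simp only [Sum.elim_inl, Sum.elim_inr, x0_val, y0_val] at this
      have := i.isLt; omega
    · have := congrArg Fin.val h
      simp only [Sum.elim_inl, Sum.elim_inr, x0_val, y0_val] at this
      have := i'.isLt; omega
    · have := congrArg Fin.val h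
      simp only [Sum.elim_inr, y0_val] at this
      rw [Fin.ext (by omega : j.val = j'.val)]
  · rintro rfl; rfl

theorem agree_mod (s : ℕ) (P : List ((Fin n ⊕ Fin n) × (Fin n ⊕ Fin n)))
    (p q : Fin n ⊕ Fin n) (hpq : (p, q) ∈ P) :
    Sum.elim (x0 n) (ymod n s (Qset P)) p = Sum.elim (x0 n) (ymod n s (Qset P)) q ↔ p = q := by
  constructor
  · intro h
    rcases p with i | j <;> rcases q with i' | j'
    · have := congrArg Fin.val h
      simp only [Sum.elim_inl, x0_val] at this
      rw [Fin.ext this]
    · have hv := congrArg Fin.val h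
      simp only [Sum.elim_inl, Sum.elim_inr, x0_val] at hv
      exfalso
      rcases ymod_val s (Qset P) j' with ⟨h1, h2, h3⟩ | h1
      · apply h3
        have hi : (⟨j'.val - s, by have := j'.isLt; omega⟩ : Fin n) = i := Fin.ext (by simp; omega)
        rw [hi]
        simp [Qset, hpq]
      · have := i.isLt; omega
    · have hv := congrArg Fin.val h
      simp only [Sum.elim_inl, Sum.elim_inr, x0_val] at hv
      exfalso
      rcases ymod_val s (Qset P) j with ⟨h1, h2, h3⟩ | h1
      · apply h3
        have hi : (⟨j.val - s, by have := j.isLt; omega⟩ : Fin n) = i' := Fin.ext (by simp; omega)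
        rw [hi]
        simp [Qset, hpq]
      · have := i'.isLt; omega
    · have hv := congrArg Fin.val h
      simp only [Sum.elim_inr] at hv
      have hj := j.isLt
      have hj' := j'.isLt
      rcases ymod_val s (Qset P) j with ⟨h1, h2, h3⟩ | h1 <;>
        rcases ymod_val s (Qset P) j' with ⟨h1', h2', h3'⟩ | h1'
      · rw [Fin.ext (by omega : j.val = j'.val)]
      · omega
      · omega
      · rw [Fin.ext (by omega : j.val = j'.val)]
  · rintro rfl; rfl

/-- Shift alignment: insert `s` symbols in front, substitute along the diagonal, delete the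
last `s` symbols. -/
theorem editIn_shift {β : Type*} [DecidableEq β] (m s : ℕ) (x y : Fin (m + s) → β) :
    EditIn (s + (∑ i : Fin m, if x (Fin.castAdd s i) =
        y (Fin.cast (Nat.add_comm s m) (Fin.natAdd s i)) then 0 else 1) + s)
      (List.ofFn x) (List.ofFn y) := by
  have hx : List.ofFn x = List.ofFn (fun i : Fin m => x (Fin.castAdd s i)) ++
      List.ofFn (fun i : Fin s => x (Fin.natAdd m i)) := by
    rw [List.ofFn_add]; rfl
  have hy : List.ofFn y =
      List.ofFn (fun i : Fin s => y (Fin.cast (Nat.add_comm s m) (Fin.castAdd m i))) ++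
      List.ofFn (fun i : Fin m => y (Fin.cast (Nat.add_comm s m) (Fin.natAdd s i))) := by
    rw [List.ofFn_congr (Nat.add_comm m s) y, List.ofFn_add]; rfl
  rw [hx, hy]
  have h1 := editIn_nil_left
    (List.ofFn (fun i : Fin s => y (Fin.cast (Nat.add_comm s m) (Fin.castAdd m i))))
  have h2 := editIn_ofFn m (fun i => x (Fin.castAdd s i))
    (fun i => y (Fin.cast (Nat.add_comm s m) (Fin.natAdd s i)))
  have h3 := editIn_nil_right (List.ofFn (fun i : Fin s => x (Fin.natAdd m i)))
  have := (h1.append h2).append h3
  simpa using this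

end Tree

section Main

variable {n : ℕ}

theorem diag_sum_le (m s : ℕ) (Q : Finset (Fin (m + s) × Fin (m + s))) :
    (∑ i : Fin m, if x0 (m + s) (Fin.castAdd s i) =
        ymod (m + s) s Q (Fin.cast (Nat.add_comm s m) (Fin.natAdd s i)) then 0 else 1) ≤
      (Q.filter (fun ij => ij.2.val = ij.1.val + s)).card := by
  classical
  have h1 : (∑ i : Fin m, if x0 (m + s) (Fin.castAdd s i) =
        ymod (m + s) s Q (Fin.cast (Nat.add_comm s m) (Fin.natAdd s i)) then 0 else 1) =
      (Finset.univ.filter (fun i : Fin m => ¬ (x0 (m + s) (Fin.castAdd s i) =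
        ymod (m + s) s Q (Fin.cast (Nat.add_comm s m) (Fin.natAdd s i))))).card := by
    rw [Finset.card_filter]
    apply Finset.sum_congr rfl
    intro i _
    by_cases h : x0 (m + s) (Fin.castAdd s i) =
      ymod (m + s) s Q (Fin.cast (Nat.add_comm s m) (Fin.natAdd s i)) <;> simp [h]
  rw [h1]
  apply Finset.card_le_card_of_injOn
    (fun i : Fin m => (Fin.castAdd s i, Fin.cast (Nat.add_comm s m) (Fin.natAdd s i)))
  · intro i hi
    simp only [Finset.coe_filter, Finset.mem_univ, true_and, Set.mem_ofPred_eq] at hi
    simp only [Finset.coe_filter, Set.mem_ofPred_eq]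
    refine ⟨?_, ?_⟩
    · by_contra hQ
      exact hi (ymod_eq s Q _ _ (by simp) hQ).symm
    · simp
  · intro i _ i' _ h
    simp only [Prod.mk.injEq] at h
    exact Fin.castAdd_injective _ _ h.1

theorem diag_bound (n s : ℕ) (hs : s ≤ n) (α : ℝ) (hα : 1 ≤ α) (T : EqTree n)
    (hT : ∀ x y : Fin n → Fin (2 * n),
      (editDist (List.ofFn x) (List.ofFn y) : ℝ) ≤ T.run x y ∧
        T.run x y ≤ α * editDist (List.ofFn x) (List.ofFn y)) :
    (n : ℝ) ≤ α * (2 * s + (((Qset (T.path (x0 n) (y0 n))).filter
      (fun ij => ij.2.val = ij.1.val + s)).card : ℝ)) := by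
  obtain ⟨m, rfl⟩ : ∃ m, n = m + s := ⟨n - s, by omega⟩
  set P := T.path (x0 (m + s)) (y0 (m + s)) with hP
  set Q := Qset P with hQ
  have hrun : T.run (x0 (m + s)) (ymod (m + s) s Q) = T.run (x0 (m + s)) (y0 (m + s)) := by
    apply EqTree.run_eq_of_agree
    intro pq hpq
    rw [agree_base, agree_mod s P pq.1 pq.2 hpq]
  have hlow : ((m + s : ℕ) : ℝ) ≤ T.run (x0 (m + s)) (y0 (m + s)) := by
    refine le_trans ?_ (hT _ _).1
    have hlen : (List.ofFn (x0 (m + s))).length ≤
        editDist (List.ofFn (x0 (m + s))) (List.ofFn (y0 (m + s))) := by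
      apply length_le_editDist_of_disjoint
      intro a ha hb
      rw [List.mem_ofFn] at ha hb
      obtain ⟨i, rfl⟩ := ha
      obtain ⟨j, hj⟩ := hb
      have hv := congrArg Fin.val hj
      simp only [x0_val, y0_val] at hv
      have := i.isLt; omega
    rw [List.length_ofFn] at hlen
    exact_mod_cast hlen
  have hup : T.run (x0 (m + s)) (ymod (m + s) s Q) ≤
      α * (2 * s + ((Q.filter (fun ij => ij.2.val = ij.1.val + s)).card : ℝ)) := by
    refine le_trans (hT _ _).2 ?_
    apply mul_le_mul_of_nonneg_left _ (by linarith)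
    have h1 := editDist_le_of_editIn (editIn_shift m s (x0 (m + s)) (ymod (m + s) s Q))
    have h2 := diag_sum_le m s Q
    have h3 : editDist (List.ofFn (x0 (m + s))) (List.ofFn (ymod (m + s) s Q)) ≤
        2 * s + (Q.filter (fun ij => ij.2.val = ij.1.val + s)).card := by omega
    exact_mod_cast h3
  rw [hrun] at hup
  exact le_trans hlow hup

theorem card_Qset_le (P : List ((Fin n ⊕ Fin n) × (Fin n ⊕ Fin n))) :
    (Qset P).card ≤ P.length := by
  classical
  refine le_trans ?_ (List.toFinset_card_le P)
  apply Finset.card_le_card_of_injOn (fun ij : Fin n × Fin n =>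
    if (Sum.inl ij.1, Sum.inr ij.2) ∈ P then
      ((Sum.inl ij.1 : Fin n ⊕ Fin n), (Sum.inr ij.2 : Fin n ⊕ Fin n))
    else (Sum.inr ij.2, Sum.inl ij.1))
  · intro ij hij
    simp only [Qset, Finset.coe_filter, Finset.mem_univ, true_and, Set.mem_ofPred_eq] at hij
    simp only [List.coe_toFinset, Set.mem_ofPred_eq]
    split_ifs with h
    · exact h
    · exact hij.resolve_left h
  · intro ij _ ij' _ h
    simp only at h
    split_ifs at h <;> simp_all [Prod.ext_iff]

theorem sum_diag_le (Q : Finset (Fin n × Fin n)) (S : ℕ) :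
    ∑ s ∈ Finset.range (S + 1), (Q.filter (fun ij => ij.2.val = ij.1.val + s)).card ≤ Q.card := by
  rw [← Finset.card_biUnion]
  · apply Finset.card_le_card
    intro ij hij
    simp only [Finset.mem_biUnion, Finset.mem_filter] at hij
    obtain ⟨_, _, h, _⟩ := hij
    exact h
  · intro s _ s' _ hss
    change Disjoint _ _
    rw [Finset.disjoint_filter]
    intro ij _ h1 h2
    omega

theorem sum_range_real (k : ℕ) : ∑ i ∈ Finset.range (k + 1), (i : ℝ) = k * (k + 1) / 2 := by
  induction k with
  | zero => simp
  | succ k ih => rw [Finset.sum_range_succ, ih]; push_cast; ring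

/-- Main theorem: a deterministic equality-comparison decision tree that approximates the
edit distance of two strings of length `n` within a factor `α` makes at least
`n ^ 2 / (4 α ^ 2)` comparisons on some input. -/
theorem main (n : ℕ) (α : ℝ) (hα : 1 ≤ α) (T : EqTree n)
    (hT : ∀ x y : Fin n → Fin (2 * n),
      (editDist (List.ofFn x) (List.ofFn y) : ℝ) ≤ T.run x y ∧
        T.run x y ≤ α * editDist (List.ofFn x) (List.ofFn y)) :
    ∃ x y : Fin n → Fin (2 * n), (n : ℝ) ^ 2 / (4 * α ^ 2) ≤ T.queries x y := by
  refine ⟨x0 n, y0 n, ?_⟩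
  rw [EqTree.queries_eq_length_path]
  set P := T.path (x0 n) (y0 n) with hP
  set Q := Qset P with hQ
  have hα0 : 0 < α := by linarith
  set t : ℝ := n / (2 * α) with ht
  have ht0 : 0 ≤ t := by positivity
  set S := ⌊t⌋₊ with hS
  have hS1 : (S : ℝ) ≤ t := Nat.floor_le ht0
  have hS2 : t < S + 1 := Nat.lt_floor_add_one t
  have hn0 : (0 : ℝ) ≤ n := Nat.cast_nonneg n
  have htn : t ≤ n := by
    rw [ht, div_le_iff₀ (by positivity)]
    nlinarith
  have hSn : S ≤ n := by exact_mod_cast (le_trans hS1 htn)
  have hsum : ∑ s ∈ Finset.range (S + 1), ((n : ℝ) / α - 2 * s) ≤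
      ∑ s ∈ Finset.range (S + 1),
        ((Q.filter (fun ij => ij.2.val = ij.1.val + s)).card : ℝ) := by
    apply Finset.sum_le_sum
    intro s hs
    have hs' : s ≤ n := by have := Finset.mem_range.mp hs; omega
    have hb := diag_bound n s hs' α hα T hT
    have h2 : (n : ℝ) / α ≤ 2 * s +
        ((Q.filter (fun ij => ij.2.val = ij.1.val + s)).card : ℝ) := by
      rw [div_le_iff₀ hα0]; linarith
    linarith
  have hgauss : ∑ s ∈ Finset.range (S + 1), ((n : ℝ) / α - 2 * s) =
      (S + 1) * ((n : ℝ) / α - S) := by
    rw [Finset.sum_sub_distrib, Finset.sum_const, Finset.card_range, ← Finset.mul_sum,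
      sum_range_real]
    simp only [nsmul_eq_mul]
    push_cast
    ring
  have hcard : (∑ s ∈ Finset.range (S + 1),
      ((Q.filter (fun ij => ij.2.val = ij.1.val + s)).card : ℝ)) ≤ (P.length : ℝ) := by
    have h1 := sum_diag_le Q S
    have h2 := card_Qset_le P
    exact_mod_cast le_trans h1 h2
  have hfinal : (n : ℝ) ^ 2 / (4 * α ^ 2) ≤ (S + 1) * ((n : ℝ) / α - S) := by
    have e1 : (n : ℝ) ^ 2 / (4 * α ^ 2) = t ^ 2 := by rw [ht]; field_simp; ring
    have e2 : (n : ℝ) / α = 2 * t := by rw [ht]; field_simp
    rw [e1, e2]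
    nlinarith [mul_nonneg (sub_nonneg.mpr hS2.le) (sub_nonneg.mpr hS1), mul_nonneg ht0
      (sub_nonneg.mpr hS1), mul_nonneg (sub_nonneg.mpr hS2.le) ht0]
  linarith

end Main

end Vale.Agent.Lib.P315
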